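import Mathlib
import Vale.Agent.Lib.P335.Defs

namespace Vale.Agent.Lib.P335

open Finset

variable {n : ℕ}

theorem pair_ne (p q r u : Fin n) (hpr : p ≠ r) (hpu : p ≠ u) : s(p, q) ≠ s(r, u) := by
  intro h
  rw [Sym2.eq_iff] at h
  rcases h with h | h
  · exact hpr h.1
  · exact hpu h.1

theorem isPM_pair (S : Finset (Fin n)) (p q r u : Fin n) (hpq : p ≠ q) (hru : r ≠ u)
    (hpr : p ≠ r) (hpu : p ≠ u)
    (hS : ∀ v, v ∈ S ↔ v = p ∨ v = q ∨ v = r ∨ v = u) :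
    IsPerfectMatchingOn S {s(p, q), s(r, u)} := by
  refine ⟨Finset.card_pair (pair_ne p q r u hpr hpu), ?_, ?_⟩
  · intro e he
    rw [Finset.mem_insert, Finset.mem_singleton] at he
    rcases he with rfl | rfl
    · rw [Sym2.mk_isDiag_iff]; exact hpq
    · rw [Sym2.mk_isDiag_iff]; exact hru
  · intro v
    rw [hS]
    constructor
    · rintro (h | h | h | h)
      · exact ⟨s(p, q), by simp, by simp [h]⟩
      · exact ⟨s(p, q), by simp, by simp [h]⟩
      · exact ⟨s(r, u), by simp, by simp [h]⟩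
      · exact ⟨s(r, u), by simp, by simp [h]⟩
    · rintro ⟨e, he, hv⟩
      rw [Finset.mem_insert, Finset.mem_singleton] at he
      rcases he with rfl | rfl
      · rw [Sym2.mem_iff] at hv; tauto
      · rw [Sym2.mem_iff] at hv; tauto

theorem pm_aux (p q r u : Fin n) (hpq : p ≠ q) (hru : r ≠ u) (hpr : p ≠ r)
    (hpu : p ≠ u) (hqr : q ≠ r) (hqu : q ≠ u) (e1 e2 : Sym2 (Fin n))
    (h1 : ¬ e1.IsDiag)
    (hcov : ∀ v, (v = p ∨ v = q ∨ v = r ∨ v = u) ↔ (v ∈ e1 ∨ v ∈ e2)) (hp : p ∈ e1) :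
    (e1 = s(p, q) ∧ e2 = s(r, u)) ∨ (e1 = s(p, r) ∧ e2 = s(q, u)) ∨
      (e1 = s(p, u) ∧ e2 = s(q, r)) := by
  obtain ⟨y, rfl⟩ := (Sym2.mem_iff_exists).mp hp
  rw [Sym2.mk_isDiag_iff] at h1
  have hy : y = p ∨ y = q ∨ y = r ∨ y = u := (hcov y).mpr (Or.inl (Sym2.mem_mk_right p y))
  have mem_e2 : ∀ x, (x = p ∨ x = q ∨ x = r ∨ x = u) → x ≠ p → x ≠ y → x ∈ e2 := by
    intro x hx hxp hxy
    rcases (hcov x).mp hx with h | h
    · rw [Sym2.mem_iff] at h
      rcases h with h | h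
      · exact absurd h hxp
      · exact absurd h hxy
    · exact h
  rcases hy with rfl | rfl | rfl | rfl
  · exact absurd rfl h1
  · left
    refine ⟨rfl, ?_⟩
    exact (Sym2.mem_and_mem_iff hru).mp
      ⟨mem_e2 r (by tauto) (Ne.symm hpr) (Ne.symm hqr),
        mem_e2 u (by tauto) (Ne.symm hpu) (Ne.symm hqu)⟩
  · right; left
    refine ⟨rfl, ?_⟩
    exact (Sym2.mem_and_mem_iff hqu).mp
      ⟨mem_e2 q (by tauto) (Ne.symm hpq) hqr, mem_e2 u (by tauto) (Ne.symm hpu) (Ne.symm hru)⟩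
  · right; right
    refine ⟨rfl, ?_⟩
    exact (Sym2.mem_and_mem_iff hqr).mp
      ⟨mem_e2 q (by tauto) (Ne.symm hpq) hqu, mem_e2 r (by tauto) (Ne.symm hpr) hru⟩

theorem pm_classify (S : Finset (Fin n)) (p q r u : Fin n) (hpq : p ≠ q) (hru : r ≠ u)
    (hpr : p ≠ r) (hpu : p ≠ u) (hqr : q ≠ r) (hqu : q ≠ u)
    (hS : ∀ v, v ∈ S ↔ v = p ∨ v = q ∨ v = r ∨ v = u)
    (F : Finset (Sym2 (Fin n))) (hF : IsPerfectMatchingOn S F) :
    F = {s(p, q), s(r, u)} ∨ F = {s(p, r), s(q, u)} ∨ F = {s(p, u), s(q, r)} := by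
  obtain ⟨hcard, hdiag, hcov⟩ := hF
  obtain ⟨e1, e2, hne, rfl⟩ := Finset.card_eq_two.mp hcard
  have hcov' : ∀ v, (v = p ∨ v = q ∨ v = r ∨ v = u) ↔ (v ∈ e1 ∨ v ∈ e2) := by
    intro v
    rw [← hS, hcov]
    constructor
    · rintro ⟨e, he, hv⟩
      rw [Finset.mem_insert, Finset.mem_singleton] at he
      rcases he with rfl | rfl
      · exact Or.inl hv
      · exact Or.inr hv
    · rintro (h | h)
      · exact ⟨e1, by simp, h⟩
      · exact ⟨e2, by simp, h⟩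
  have hp : p ∈ e1 ∨ p ∈ e2 := (hcov' p).mp (Or.inl rfl)
  rcases hp with hp | hp
  · rcases pm_aux p q r u hpq hru hpr hpu hqr hqu e1 e2 (hdiag e1 (by simp)) hcov' hp with
      ⟨rfl, rfl⟩ | ⟨rfl, rfl⟩ | ⟨rfl, rfl⟩
    · exact Or.inl rfl
    · exact Or.inr (Or.inl rfl)
    · exact Or.inr (Or.inr rfl)
  · have hcov'' : ∀ v, (v = p ∨ v = q ∨ v = r ∨ v = u) ↔ (v ∈ e2 ∨ v ∈ e1) := by
      intro v; rw [hcov' v]; exact or_comm
    rcases pm_aux p q r u hpq hru hpr hpu hqr hqu e2 e1 (hdiag e2 (by simp)) hcov'' hp with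
      ⟨rfl, rfl⟩ | ⟨rfl, rfl⟩ | ⟨rfl, rfl⟩
    · exact Or.inl (Finset.pair_comm _ _)
    · exact Or.inr (Or.inl (Finset.pair_comm _ _))
    · exact Or.inr (Or.inr (Finset.pair_comm _ _))

theorem pairset_ne (p q r u : Fin n) (hpq : p ≠ q) (hpu : p ≠ u) (hqr : q ≠ r) :
    ({s(p, q), s(r, u)} : Finset (Sym2 (Fin n))) ≠ {s(p, r), s(q, u)} := by
  intro h
  have h1 : s(p, q) ∈ ({s(p, r), s(q, u)} : Finset (Sym2 (Fin n))) := by
    rw [← h]; simp
  rw [Finset.mem_insert, Finset.mem_singleton, Sym2.eq_iff, Sym2.eq_iff] at h1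
  rcases h1 with (h1 | h1) | (h1 | h1)
  · exact hqr h1.2
  · exact hpq h1.2.symm
  · exact hpq h1.1
  · exact hpu h1.1

theorem six_le_fiber (S : Finset (Fin n)) (hS : S.card = 4) :
    6 ≤ ((moves n).filter (fun m => m.1 = S)).card := by
  classical
  obtain ⟨p, T, hpT, rfl, hT⟩ := Finset.card_eq_succ.mp hS
  obtain ⟨q, r, u, hqr, hqu, hru, rfl⟩ := Finset.card_eq_three.mp hT
  have hpq : p ≠ q := by intro h; apply hpT; simp [h]
  have hpr : p ≠ r := by intro h; apply hpT; simp [h]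
  have hpu : p ≠ u := by intro h; apply hpT; simp [h]
  have hmem : ∀ v, v ∈ insert p ({q, r, u} : Finset (Fin n)) ↔ v = p ∨ v = q ∨ v = r ∨ v = u := by
    intro v; simp
  have hmem2 : ∀ v, v ∈ insert p ({q, r, u} : Finset (Fin n)) ↔ v = p ∨ v = r ∨ v = q ∨ v = u := by
    intro v; simp; tauto
  have hmem3 : ∀ v, v ∈ insert p ({q, r, u} : Finset (Fin n)) ↔ v = p ∨ v = u ∨ v = q ∨ v = r := by
    intro v; simp; tauto
  have pm1 := isPM_pair _ p q r u hpq hru hpr hpu hmem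
  have pm2 := isPM_pair _ p r q u hpr hqu hpq hpu hmem2
  have pm3 := isPM_pair _ p u q r hpu hqr hpq hpr hmem3
  have h12 : ({s(p, q), s(r, u)} : Finset (Sym2 (Fin n))) ≠ {s(p, r), s(q, u)} :=
    pairset_ne p q r u hpq hpu hqr
  have h13 : ({s(p, q), s(r, u)} : Finset (Sym2 (Fin n))) ≠ {s(p, u), s(q, r)} := by
    have := pairset_ne p q u r hpq hpr hqu
    rwa [Sym2.eq_swap (a := u) (b := r)] at this
  have h23 : ({s(p, r), s(q, u)} : Finset (Sym2 (Fin n))) ≠ {s(p, u), s(q, r)} := by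
    have := pairset_ne p r u q hpr hpq hru
    rwa [Sym2.eq_swap (a := u) (b := q), Sym2.eq_swap (a := r) (b := q)] at this
  set S0 : Finset (Fin n) := insert p ({q, r, u} : Finset (Fin n)) with hS0
  set G1 : Finset (Sym2 (Fin n)) := {s(p, q), s(r, u)} with hG1
  set G2 : Finset (Sym2 (Fin n)) := {s(p, r), s(q, u)} with hG2
  set G3 : Finset (Sym2 (Fin n)) := {s(p, u), s(q, r)} with hG3
  have hsub : ({(S0, G1, G2), (S0, G1, G3), (S0, G2, G1), (S0, G2, G3), (S0, G3, G1),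
      (S0, G3, G2)} : Finset (Finset (Fin n) × Finset (Sym2 (Fin n)) × Finset (Sym2 (Fin n)))) ⊆
      (moves n).filter (fun m => m.1 = S0) := by
    intro m hm
    simp only [Finset.mem_insert, Finset.mem_singleton] at hm
    simp only [moves, Finset.mem_filter, Finset.mem_univ, true_and]
    rcases hm with rfl | rfl | rfl | rfl | rfl | rfl
    · exact ⟨⟨hS, pm1, pm2, h12⟩, rfl⟩
    · exact ⟨⟨hS, pm1, pm3, h13⟩, rfl⟩
    · exact ⟨⟨hS, pm2, pm1, Ne.symm h12⟩, rfl⟩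
    · exact ⟨⟨hS, pm2, pm3, h23⟩, rfl⟩
    · exact ⟨⟨hS, pm3, pm1, Ne.symm h13⟩, rfl⟩
    · exact ⟨⟨hS, pm3, pm2, Ne.symm h23⟩, rfl⟩
  have hcard : ({(S0, G1, G2), (S0, G1, G3), (S0, G2, G1), (S0, G2, G3), (S0, G3, G1),
      (S0, G3, G2)} : Finset (Finset (Fin n) × Finset (Sym2 (Fin n)) × Finset (Sym2 (Fin n)))).card
      = 6 := by
    rw [Finset.card_insert_of_notMem, Finset.card_insert_of_notMem, Finset.card_insert_of_notMem,
      Finset.card_insert_of_notMem, Finset.card_insert_of_notMem, Finset.card_singleton]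
    all_goals simp [Prod.ext_iff, h12, h13, h23, Ne.symm h12, Ne.symm h13, Ne.symm h23]
  calc 6 = _ := hcard.symm
    _ ≤ _ := Finset.card_le_card hsub

theorem moves_card_ge (n : ℕ) : 6 * n.choose 4 ≤ (moves n).card := by
  classical
  have H : ∀ m ∈ moves n, m.1 ∈ Finset.powersetCard 4 (Finset.univ : Finset (Fin n)) := by
    intro m hm
    simp only [moves, Finset.mem_filter, Finset.mem_univ, true_and] at hm
    rw [Finset.mem_powersetCard]
    exact ⟨Finset.subset_univ _, hm.1⟩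
  rw [Finset.card_eq_sum_card_fiberwise H]
  calc 6 * n.choose 4 = ∑ _S ∈ Finset.powersetCard 4 (Finset.univ : Finset (Fin n)), 6 := by
        rw [Finset.sum_const, Finset.card_powersetCard, Finset.card_univ, Fintype.card_fin]
        simp [mul_comm]
    _ ≤ _ := by
        apply Finset.sum_le_sum
        intro S hS
        rw [Finset.mem_powersetCard] at hS
        exact six_le_fiber S hS.2

end Vale.Agent.Lib.P335
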