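import Mathlib
import Vale.Agent.Lib.P335.Matching

namespace Vale.Agent.Lib.P335

open Finset

variable {n : ℕ}

theorem exists_four (S : Finset (Fin n)) (hS : S.card = 4) :
    ∃ p q r u : Fin n, p ≠ q ∧ r ≠ u ∧ p ≠ r ∧ p ≠ u ∧ q ≠ r ∧ q ≠ u ∧
      ∀ v, v ∈ S ↔ v = p ∨ v = q ∨ v = r ∨ v = u := by
  classical
  obtain ⟨p, T, hpT, rfl, hT⟩ := Finset.card_eq_succ.mp hS
  obtain ⟨q, r, u, hqr, hqu, hru, rfl⟩ := Finset.card_eq_three.mp hT
  refine ⟨p, q, r, u, ?_, hru, ?_, ?_, hqr, hqu, ?_⟩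
  · intro h; apply hpT; simp [h]
  · intro h; apply hpT; simp [h]
  · intro h; apply hpT; simp [h]
  · intro v; simp

/-- Every move is, after naming the four vertices suitably, the replacement of
`{pq, ru}` by `{pr, qu}`. -/
theorem move_normal (m : Finset (Fin n) × Finset (Sym2 (Fin n)) × Finset (Sym2 (Fin n)))
    (hm : m ∈ moves n) :
    ∃ p q r u : Fin n, p ≠ q ∧ r ≠ u ∧ p ≠ r ∧ p ≠ u ∧ q ≠ r ∧ q ≠ u ∧
      (∀ v, v ∈ m.1 ↔ v = p ∨ v = q ∨ v = r ∨ v = u) ∧
      m.2.1 = {s(p, q), s(r, u)} ∧ m.2.2 = {s(p, r), s(q, u)} := by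
  classical
  simp only [moves, mem_filter, mem_univ, true_and] at hm
  obtain ⟨hS4, hF, hF', hne⟩ := hm
  obtain ⟨a, b, c, e, hab, hce, hac, hae, hbc, hbe, hS⟩ := exists_four m.1 hS4
  rcases pm_classify m.1 a b c e hab hce hac hae hbc hbe hS m.2.1 hF with h1 | h1 | h1 <;>
  rcases pm_classify m.1 a b c e hab hce hac hae hbc hbe hS m.2.2 hF' with h2 | h2 | h2
  · exact absurd (h1.trans h2.symm) hne
  · exact ⟨a, b, c, e, hab, hce, hac, hae, hbc, hbe, hS, h1, h2⟩
  · refine ⟨a, b, e, c, hab, hce.symm, hae, hac, hbe, hbc, ?_, ?_, h2⟩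
    · intro v; rw [hS]; tauto
    · rw [h1, Sym2.eq_swap (a := e) (b := c)]
  · refine ⟨a, c, b, e, hac, hbe, hab, hae, hbc.symm, hce, ?_, h1, h2⟩
    · intro v; rw [hS]; tauto
  · exact absurd (h1.trans h2.symm) hne
  · refine ⟨a, c, e, b, hac, hbe.symm, hae, hab, hce, hbc.symm, ?_, ?_, ?_⟩
    · intro v; rw [hS]; tauto
    · rw [h1, Sym2.eq_swap (a := e) (b := b)]
    · rw [h2, Sym2.eq_swap (a := c) (b := b)]
  · refine ⟨a, e, b, c, hae, hbc, hab, hac, hbe.symm, hce.symm, ?_, h1, ?_⟩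
    · intro v; rw [hS]; tauto
    · rw [h2, Sym2.eq_swap (a := e) (b := c)]
  · refine ⟨a, e, c, b, hae, hbc.symm, hac, hab, hce.symm, hbe.symm, ?_, ?_, ?_⟩
    · intro v; rw [hS]; tauto
    · rw [h1, Sym2.eq_swap (a := c) (b := b)]
    · rw [h2, Sym2.eq_swap (a := e) (b := b)]
  · exact absurd (h1.trans h2.symm) hne

/-- number of edges of a normalized pair at a vertex -/
theorem inc_pair (p q r u v : Fin n) (hpr : p ≠ r) (hpu : p ≠ u) :
    (({s(p, q), s(r, u)} : Finset (Sym2 (Fin n))).filter (fun e => v ∈ e)).card =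
      (if v = p ∨ v = q then 1 else 0) + (if v = r ∨ v = u then 1 else 0) := by
  classical
  rw [Finset.card_filter, Finset.sum_pair (pair_ne p q r u hpr hpu)]
  simp only [Sym2.mem_iff]

theorem inc_eq (p q r u v : Fin n) (hpq : p ≠ q) (hru : r ≠ u) (hpr : p ≠ r) (hpu : p ≠ u)
    (hqr : q ≠ r) (hqu : q ≠ u) :
    (({s(p, q), s(r, u)} : Finset (Sym2 (Fin n))).filter (fun e => v ∈ e)).card =
    (({s(p, r), s(q, u)} : Finset (Sym2 (Fin n))).filter (fun e => v ∈ e)).card := by
  classical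
  rw [inc_pair p q r u v hpr hpu, inc_pair p r q u v hpq hpu]
  by_cases h1 : v = p
  · subst h1; simp [hpq, hpr, hpu]
  by_cases h2 : v = q
  · subst h2; simp [Ne.symm hpq, hqr, hqu]
  by_cases h3 : v = r
  · subst h3; simp [Ne.symm hpr, Ne.symm hqr, hru]
  by_cases h4 : v = u
  · subst h4; simp [Ne.symm hpu, Ne.symm hqu, Ne.symm hru]
  simp [h1, h2, h3, h4]

theorem degree_switch (G : SimpleGraph (Fin n)) (p q r u : Fin n)
    (hpq : p ≠ q) (hru : r ≠ u) (hpr : p ≠ r) (hpu : p ≠ u) (hqr : q ≠ r) (hqu : q ≠ u)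
    (h1 : s(p, q) ∈ G.edgeSet) (h2 : s(r, u) ∈ G.edgeSet)
    (h3 : s(p, r) ∉ G.edgeSet) (h4 : s(q, u) ∉ G.edgeSet) (v : Fin n)
    (inst1 : Fintype (G.neighborSet v))
    (inst2 : Fintype ((SimpleGraph.fromEdgeSet
      ((G.edgeSet \ (({s(p, q), s(r, u)} : Finset (Sym2 (Fin n))) : Set (Sym2 (Fin n)))) ∪
        (({s(p, r), s(q, u)} : Finset (Sym2 (Fin n))) : Set (Sym2 (Fin n))))).neighborSet v)) :
    @SimpleGraph.degree _ (SimpleGraph.fromEdgeSet
      ((G.edgeSet \ (({s(p, q), s(r, u)} : Finset (Sym2 (Fin n))) : Set (Sym2 (Fin n)))) ∪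
        (({s(p, r), s(q, u)} : Finset (Sym2 (Fin n))) : Set (Sym2 (Fin n))))) v inst2 =
      @SimpleGraph.degree _ G v inst1 := by
  classical
  rw [← SimpleGraph.card_incidenceFinset_eq_degree, ← SimpleGraph.card_incidenceFinset_eq_degree,
    SimpleGraph.incidenceFinset_eq_filter, SimpleGraph.incidenceFinset_eq_filter]
  have hE : (SimpleGraph.fromEdgeSet
      ((G.edgeSet \ (({s(p, q), s(r, u)} : Finset (Sym2 (Fin n))) : Set (Sym2 (Fin n)))) ∪
        (({s(p, r), s(q, u)} : Finset (Sym2 (Fin n))) : Set (Sym2 (Fin n))))).edgeFinset =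
      (G.edgeFinset \ ({s(p, q), s(r, u)} : Finset (Sym2 (Fin n)))) ∪
        ({s(p, r), s(q, u)} : Finset (Sym2 (Fin n))) := by
    ext e
    rw [SimpleGraph.mem_edgeFinset, SimpleGraph.edgeSet_fromEdgeSet]
    simp only [Set.mem_sdiff, Set.mem_union, Finset.mem_coe, Finset.mem_union, Finset.mem_sdiff,
      SimpleGraph.mem_edgeFinset, Sym2.mem_diagSet]
    constructor
    · rintro ⟨h, _⟩; exact h
    · intro h
      refine ⟨h, ?_⟩
      rcases h with h | h
      · exact G.not_isDiag_of_mem_edgeSet h.1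
      · rw [Finset.mem_insert, Finset.mem_singleton] at h
        rcases h with rfl | rfl
        · rw [Sym2.mk_isDiag_iff]; exact hpr
        · rw [Sym2.mk_isDiag_iff]; exact hqu
  have hdisj : Disjoint (G.edgeFinset \ ({s(p, q), s(r, u)} : Finset (Sym2 (Fin n))))
      ({s(p, r), s(q, u)} : Finset (Sym2 (Fin n))) := by
    rw [Finset.disjoint_left]
    intro e he he'
    rw [Finset.mem_sdiff, SimpleGraph.mem_edgeFinset] at he
    rw [Finset.mem_insert, Finset.mem_singleton] at he'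
    rcases he' with rfl | rfl
    · exact h3 he.1
    · exact h4 he.1
  have hsub : ({s(p, q), s(r, u)} : Finset (Sym2 (Fin n))) ⊆ G.edgeFinset := by
    intro e he
    rw [Finset.mem_insert, Finset.mem_singleton] at he
    rw [SimpleGraph.mem_edgeFinset]
    rcases he with rfl | rfl
    · exact h1
    · exact h2
  rw [hE, Finset.filter_union, Finset.card_union_of_disjoint (Finset.disjoint_filter_filter hdisj)]
  have hkey := inc_eq p q r u v hpq hru hpr hpu hqr hqu
  have hsplit : (G.edgeFinset.filter (fun e => v ∈ e)).card =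
      ((G.edgeFinset \ ({s(p, q), s(r, u)} : Finset (Sym2 (Fin n)))).filter (fun e => v ∈ e)).card +
      (({s(p, q), s(r, u)} : Finset (Sym2 (Fin n))).filter (fun e => v ∈ e)).card := by
    rw [← Finset.card_union_of_disjoint, ← Finset.filter_union, Finset.sdiff_union_of_subset hsub]
    exact Finset.disjoint_filter_filter Finset.sdiff_disjoint
  rw [hsplit, hkey]


theorem applyMove_pos (G : SimpleGraph (Fin n))
    (m : Finset (Fin n) × Finset (Sym2 (Fin n)) × Finset (Sym2 (Fin n)))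
    (hc : (∀ e ∈ m.2.1, e ∈ G.edgeSet) ∧ (∀ e ∈ m.2.2, e ∉ G.edgeSet)) :
    applyMove G m = SimpleGraph.fromEdgeSet
      ((G.edgeSet \ (m.2.1 : Set (Sym2 (Fin n)))) ∪ (m.2.2 : Set (Sym2 (Fin n)))) := by
  unfold applyMove
  rw [if_pos hc]

theorem applyMove_neg (G : SimpleGraph (Fin n))
    (m : Finset (Fin n) × Finset (Sym2 (Fin n)) × Finset (Sym2 (Fin n)))
    (hc : ¬ ((∀ e ∈ m.2.1, e ∈ G.edgeSet) ∧ (∀ e ∈ m.2.2, e ∉ G.edgeSet))) :
    applyMove G m = G := by
  unfold applyMove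
  rw [if_neg hc]

open Classical in
/-- Attempting a move never changes any degree. -/
theorem applyMove_degree (G : SimpleGraph (Fin n))
    (m : Finset (Fin n) × Finset (Sym2 (Fin n)) × Finset (Sym2 (Fin n))) (hm : m ∈ moves n)
    (v : Fin n) : (applyMove G m).degree v = G.degree v := by
  obtain ⟨p, q, r, u, hpq, hru, hpr, hpu, hqr, hqu, hS, hF, hF'⟩ := move_normal m hm
  obtain ⟨S, F, F'⟩ := m
  simp only at hS hF hF'
  subst hF hF'
  unfold applyMove
  by_cases hc : (∀ e ∈ ({s(p, q), s(r, u)} : Finset (Sym2 (Fin n))), e ∈ G.edgeSet) ∧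
      (∀ e ∈ ({s(p, r), s(q, u)} : Finset (Sym2 (Fin n))), e ∉ G.edgeSet)
  · rw [if_pos hc]
    exact degree_switch G p q r u hpq hru hpr hpu hqr hqu (hc.1 _ (by simp)) (hc.1 _ (by simp))
      (hc.2 _ (by simp)) (hc.2 _ (by simp)) v _ _
  · rw [if_neg hc]

theorem applyMove_mem (d : Fin n → ℕ) (G : SimpleGraph (Fin n)) (hG : G ∈ realizations n d)
    (m : Finset (Fin n) × Finset (Sym2 (Fin n)) × Finset (Sym2 (Fin n))) (hm : m ∈ moves n) :
    applyMove G m ∈ realizations n d := by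
  classical
  simp only [realizations, Finset.mem_filter, Finset.mem_univ, true_and] at hG ⊢
  intro i
  rw [applyMove_degree G m hm i]
  exact hG i

theorem swap_mem (m : Finset (Fin n) × Finset (Sym2 (Fin n)) × Finset (Sym2 (Fin n)))
    (hm : m ∈ moves n) : (m.1, m.2.2, m.2.1) ∈ moves n := by
  classical
  simp only [moves, Finset.mem_filter, Finset.mem_univ, true_and] at hm ⊢
  exact ⟨hm.1, hm.2.2.1, hm.2.1, Ne.symm hm.2.2.2⟩

/-- A successful move can be undone by the move with the two matchings exchanged. -/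
theorem applyMove_swap (G : SimpleGraph (Fin n))
    (m : Finset (Fin n) × Finset (Sym2 (Fin n)) × Finset (Sym2 (Fin n))) (hm : m ∈ moves n)
    (hne : applyMove G m ≠ G) : applyMove (applyMove G m) (m.1, m.2.2, m.2.1) = G := by
  classical
  simp only [moves, Finset.mem_filter, Finset.mem_univ, true_and] at hm
  obtain ⟨_, hF, hF', _⟩ := hm
  by_cases hc : (∀ e ∈ m.2.1, e ∈ G.edgeSet) ∧ (∀ e ∈ m.2.2, e ∉ G.edgeSet)
  · have hH : applyMove G m = SimpleGraph.fromEdgeSet
        ((G.edgeSet \ (m.2.1 : Set (Sym2 (Fin n)))) ∪ (m.2.2 : Set (Sym2 (Fin n)))) :=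
      applyMove_pos G m hc
    have hEH : (applyMove G m).edgeSet =
        (G.edgeSet \ (m.2.1 : Set (Sym2 (Fin n)))) ∪ (m.2.2 : Set (Sym2 (Fin n))) := by
      rw [hH, SimpleGraph.edgeSet_fromEdgeSet]
      ext e
      simp only [Set.mem_sdiff, Set.mem_union, Finset.mem_coe, Sym2.mem_diagSet]
      constructor
      · rintro ⟨h, _⟩; exact h
      · intro h
        refine ⟨h, ?_⟩
        rcases h with h | h
        · exact G.not_isDiag_of_mem_edgeSet h.1
        · exact hF'.2.1 e h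
    have hc' : (∀ e ∈ m.2.2, e ∈ (applyMove G m).edgeSet) ∧
        (∀ e ∈ m.2.1, e ∉ (applyMove G m).edgeSet) := by
      constructor
      · intro e he
        rw [hEH]
        exact Or.inr (by exact_mod_cast he)
      · intro e he h
        rw [hEH] at h
        rcases h with h | h
        · exact h.2 (by exact_mod_cast he)
        · exact hc.2 e (by exact_mod_cast h) (hc.1 e he)
    have hback : applyMove (applyMove G m) (m.1, m.2.2, m.2.1) = SimpleGraph.fromEdgeSet
        (((applyMove G m).edgeSet \ (m.2.2 : Set (Sym2 (Fin n)))) ∪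
          (m.2.1 : Set (Sym2 (Fin n)))) :=
      applyMove_pos (applyMove G m) (m.1, m.2.2, m.2.1) hc'
    rw [hback, hEH]
    have hset : (((G.edgeSet \ (m.2.1 : Set (Sym2 (Fin n)))) ∪ (m.2.2 : Set (Sym2 (Fin n)))) \
        (m.2.2 : Set (Sym2 (Fin n)))) ∪ (m.2.1 : Set (Sym2 (Fin n))) = G.edgeSet := by
      ext e
      simp only [Set.mem_sdiff, Set.mem_union, Finset.mem_coe]
      constructor
      · rintro (⟨(h | h), h'⟩ | h)
        · exact h.1
        · exact absurd h h'
        · exact hc.1 e h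
      · intro h
        by_cases he : e ∈ m.2.1
        · exact Or.inr he
        · exact Or.inl ⟨Or.inl ⟨h, he⟩, fun h' => hc.2 e h' h⟩
    rw [hset, SimpleGraph.fromEdgeSet_edgeSet]
  · exact absurd (applyMove_neg G m hc) hne

open Classical in
theorem count_symm (G H : SimpleGraph (Fin n)) (hne : H ≠ G) :
    ((moves n).filter (fun m => applyMove G m = H)).card =
      ((moves n).filter (fun m => applyMove H m = G)).card := by
  apply Finset.card_nbij' (fun m => (m.1, m.2.2, m.2.1)) (fun m => (m.1, m.2.2, m.2.1))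
  · intro m hm
    rw [Finset.mem_coe, Finset.mem_filter] at hm ⊢
    refine ⟨swap_mem m hm.1, ?_⟩
    have := applyMove_swap G m hm.1 (by rw [hm.2]; exact hne)
    rwa [hm.2] at this
  · intro m hm
    rw [Finset.mem_coe, Finset.mem_filter] at hm ⊢
    refine ⟨swap_mem m hm.1, ?_⟩
    have := applyMove_swap H m hm.1 (by rw [hm.2]; exact Ne.symm hne)
    rwa [hm.2] at this
  · intro m _; rfl
  · intro m _; rfl

theorem kernel_symm (G H : SimpleGraph (Fin n)) : kernel n G H = kernel n H G := by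
  classical
  by_cases h : H = G
  · subst h; rfl
  · unfold kernel
    rw [if_neg h, if_neg (Ne.symm h), count_symm G H h]

end Vale.Agent.Lib.P335
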