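import Mathlib
import Vale.Agent.Lib.P335.Defs
import Vale.Agent.Lib.P335.Matching
import Vale.Agent.Lib.P335.Switch

namespace Vale.Agent.Lib.P335

open Finset

variable {n : ℕ}

theorem fiber_le_six (S : Finset (Fin n)) (hS : S.card = 4) :
    ((moves n).filter (fun m => m.1 = S)).card ≤ 6 := by
  classical
  obtain ⟨p, q, r, u, hpq, hru, hpr, hpu, hqr, hqu, hmem⟩ := exists_four S hS
  set G1 : Finset (Sym2 (Fin n)) := {s(p, q), s(r, u)} with hG1
  set G2 : Finset (Sym2 (Fin n)) := {s(p, r), s(q, u)} with hG2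
  set G3 : Finset (Sym2 (Fin n)) := {s(p, u), s(q, r)} with hG3
  have hsub : (moves n).filter (fun m => m.1 = S) ⊆
      ({(S, G1, G2), (S, G1, G3), (S, G2, G1), (S, G2, G3), (S, G3, G1),
        (S, G3, G2)} : Finset (Finset (Fin n) × Finset (Sym2 (Fin n)) × Finset (Sym2 (Fin n)))) := by
    intro m hm
    rw [Finset.mem_filter] at hm
    obtain ⟨hm1, hmS⟩ := hm
    simp only [moves, Finset.mem_filter, Finset.mem_univ, true_and] at hm1
    obtain ⟨_, hF, hF', hne⟩ := hm1
    obtain ⟨S', F, F'⟩ := m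
    simp only at hmS hF hF' hne
    subst hmS
    have c1 := pm_classify S' p q r u hpq hru hpr hpu hqr hqu hmem F hF
    have c2 := pm_classify S' p q r u hpq hru hpr hpu hqr hqu hmem F' hF'
    simp only [Finset.mem_insert, Finset.mem_singleton, Prod.mk.injEq, true_and]
    rcases c1 with h1 | h1 | h1 <;> rcases c2 with h2 | h2 | h2
    · exact absurd (h1.trans h2.symm) hne
    · exact Or.inl ⟨h1, h2⟩
    · exact Or.inr (Or.inl ⟨h1, h2⟩)
    · exact Or.inr (Or.inr (Or.inl ⟨h1, h2⟩))
    · exact absurd (h1.trans h2.symm) hne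
    · exact Or.inr (Or.inr (Or.inr (Or.inl ⟨h1, h2⟩)))
    · exact Or.inr (Or.inr (Or.inr (Or.inr (Or.inl ⟨h1, h2⟩))))
    · exact Or.inr (Or.inr (Or.inr (Or.inr (Or.inr ⟨h1, h2⟩))))
    · exact absurd (h1.trans h2.symm) hne
  exact le_trans (Finset.card_le_card hsub) Finset.card_le_six

theorem moves_card (n : ℕ) : (moves n).card = 6 * n.choose 4 := by
  classical
  have H : ∀ m ∈ moves n, m.1 ∈ Finset.powersetCard 4 (Finset.univ : Finset (Fin n)) := by
    intro m hm
    simp only [moves, Finset.mem_filter, Finset.mem_univ, true_and] at hm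
    rw [Finset.mem_powersetCard]
    exact ⟨Finset.subset_univ _, hm.1⟩
  rw [Finset.card_eq_sum_card_fiberwise H]
  have h6 : ∀ S ∈ Finset.powersetCard 4 (Finset.univ : Finset (Fin n)),
      ((moves n).filter (fun m => m.1 = S)).card = 6 := by
    intro S hS
    rw [Finset.mem_powersetCard] at hS
    exact le_antisymm (fiber_le_six S hS.2) (six_le_fiber S hS.2)
  rw [Finset.sum_congr rfl h6, Finset.sum_const, Finset.card_powersetCard, Finset.card_univ,
    Fintype.card_fin]
  simp [mul_comm]

theorem kernel_row_sum (hn : 4 ≤ n) (d : Fin n → ℕ) (G : SimpleGraph (Fin n))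
    (hG : G ∈ realizations n d) : ∑ H ∈ realizations n d, kernel n G H = 1 := by
  classical
  unfold kernel
  rw [Finset.sum_add_distrib, ← Finset.mul_sum]
  have h1 : ∑ H ∈ realizations n d, (if H = G then (1 / 2 : ℝ) else 0) = 1 / 2 := by
    rw [Finset.sum_ite_eq' (realizations n d) G (fun _ => (1 / 2 : ℝ))]
    simp [hG]
  have h2 : ∑ H ∈ realizations n d, (((moves n).filter (fun m => applyMove G m = H)).card : ℝ)
      = ((moves n).card : ℝ) := by
    rw [← Nat.cast_sum]
    congr 1
    exact (Finset.card_eq_sum_card_fiberwise (f := fun m => applyMove G m)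
      (fun m hm => applyMove_mem d G hG m hm)).symm
  rw [h1, h2, moves_card n]
  have hc : (0 : ℝ) < (n.choose 4 : ℝ) := by
    exact_mod_cast Nat.choose_pos hn
  push_cast
  field_simp
  ring

end Vale.Agent.Lib.P335
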