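import Mathlib
import Vale.Agent.Lib.P335.Defs
import Vale.Agent.Lib.P335.Matching
import Vale.Agent.Lib.P335.Switch
import Vale.Agent.Lib.P335.Count

namespace Vale.Agent.Lib.P335

open Finset

variable {n : ℕ}

/-- `H` is obtained from `G` by one successful move of the chain and differs from `G`. -/
def SwitchRel (n : ℕ) (G H : SimpleGraph (Fin n)) : Prop :=
  ∃ m ∈ moves n, applyMove G m = H ∧ H ≠ G

theorem switchRel_symm (G H : SimpleGraph (Fin n)) (h : SwitchRel n G H) : SwitchRel n H G := by
  obtain ⟨m, hm, hmH, hne⟩ := h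
  refine ⟨(m.1, m.2.2, m.2.1), swap_mem m hm, ?_, Ne.symm hne⟩
  have := applyMove_swap G m hm (by rw [hmH]; exact hne)
  rwa [hmH] at this

theorem switchRel_mem (d : Fin n → ℕ) (G H : SimpleGraph (Fin n)) (hG : G ∈ realizations n d)
    (h : SwitchRel n G H) : H ∈ realizations n d := by
  obtain ⟨m, hm, hmH, _⟩ := h
  rw [← hmH]
  exact applyMove_mem d G hG m hm

theorem kernel_ge_of_switch (hn : 4 ≤ n) (G H : SimpleGraph (Fin n)) (h : SwitchRel n G H) :
    1 / (12 * (n.choose 4 : ℝ)) ≤ kernel n G H := by
  classical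
  obtain ⟨m, hm, hmH, hne⟩ := h
  have hc : (0 : ℝ) < (n.choose 4 : ℝ) := by exact_mod_cast Nat.choose_pos hn
  have hcard : (1 : ℝ) ≤ (((moves n).filter (fun m => applyMove G m = H)).card : ℝ) := by
    have : 0 < ((moves n).filter (fun m => applyMove G m = H)).card :=
      Finset.card_pos.mpr ⟨m, Finset.mem_filter.mpr ⟨hm, hmH⟩⟩
    exact_mod_cast this
  unfold kernel
  rw [if_neg hne, zero_add]
  have h1 : 1 / (12 * (n.choose 4 : ℝ)) = (1 / 2) * (1 / (n.choose 4 : ℝ)) * (1 / 6) * 1 := by
    field_simp
    ring
  rw [h1]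
  exact mul_le_mul_of_nonneg_left hcard (by positivity)

/-- The switch removing `ab`, `ce` and inserting `ac`, `be`. -/
theorem switch_step (G : SimpleGraph (Fin n)) (a b c e : Fin n) (hab : a ≠ b) (hce : c ≠ e)
    (hac : a ≠ c) (hae : a ≠ e) (hbc : b ≠ c) (hbe : b ≠ e)
    (h1 : G.Adj a b) (h2 : G.Adj c e) (h3 : ¬ G.Adj a c) (h4 : ¬ G.Adj b e) :
    ∃ G' : SimpleGraph (Fin n), SwitchRel n G G' ∧
      (∀ x, G'.Adj a x ↔ (G.Adj a x ∧ x ≠ b) ∨ x = c) ∧
      (∀ w v, w ≠ a → w ≠ b → w ≠ c → w ≠ e → (G'.Adj w v ↔ G.Adj w v)) := by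
  classical
  set S : Finset (Fin n) := {a, b, c, e} with hS
  set F : Finset (Sym2 (Fin n)) := {s(a, b), s(c, e)} with hF
  set F' : Finset (Sym2 (Fin n)) := {s(a, c), s(b, e)} with hF'
  have hmem : ∀ v, v ∈ S ↔ v = a ∨ v = b ∨ v = c ∨ v = e := by
    intro v; simp [hS]
  have hmem' : ∀ v, v ∈ S ↔ v = a ∨ v = c ∨ v = b ∨ v = e := by
    intro v; simp [hS]; tauto
  have hcard : S.card = 4 := by
    rw [hS, Finset.card_insert_of_notMem, Finset.card_insert_of_notMem,
      Finset.card_insert_of_notMem, Finset.card_singleton]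
    · simp [hce]
    · simp [hbc, hbe]
    · simp [hab, hac, hae]
  have hm : (S, F, F') ∈ moves n := by
    simp only [moves, Finset.mem_filter, Finset.mem_univ, true_and]
    exact ⟨hcard, isPM_pair S a b c e hab hce hac hae hmem,
      isPM_pair S a c b e hac hbe hab hae hmem', pairset_ne a b c e hab hae hbc⟩
  have hcond : (∀ x ∈ (S, F, F').2.1, x ∈ G.edgeSet) ∧ (∀ x ∈ (S, F, F').2.2, x ∉ G.edgeSet) := by
    constructor
    · intro x hx
      simp only [hF, Finset.mem_insert, Finset.mem_singleton] at hx
      rcases hx with rfl | rfl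
      · exact h1
      · exact h2
    · intro x hx
      simp only [hF', Finset.mem_insert, Finset.mem_singleton] at hx
      rcases hx with rfl | rfl
      · exact h3
      · exact h4
  have hG' := applyMove_pos G (S, F, F') hcond
  have hadj : ∀ x y, (applyMove G (S, F, F')).Adj x y ↔
      ((G.Adj x y ∧ s(x, y) ≠ s(a, b) ∧ s(x, y) ≠ s(c, e)) ∨
        (s(x, y) = s(a, c) ∨ s(x, y) = s(b, e))) ∧ x ≠ y := by
    intro x y
    rw [hG', SimpleGraph.fromEdgeSet_adj]
    simp only [hF, hF', Finset.coe_insert, Finset.coe_singleton, Set.mem_union, Set.mem_sdiff,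
      Set.mem_insert_iff, Set.mem_singleton_iff, SimpleGraph.mem_edgeSet, not_or]
  refine ⟨applyMove G (S, F, F'), ⟨(S, F, F'), hm, rfl, ?_⟩, ?_, ?_⟩
  · intro heq
    have : (applyMove G (S, F, F')).Adj a c := by
      rw [hadj]
      exact ⟨Or.inr (Or.inl rfl), hac⟩
    rw [heq] at this
    exact h3 this
  · intro x
    have e1 : s(a, x) = s(a, b) ↔ x = b := Sym2.congr_right
    have e2 : ¬ s(a, x) = s(c, e) := by
      intro h
      rw [Sym2.eq_iff] at h
      rcases h with ⟨h, _⟩ | ⟨h, _⟩
      · exact hac h
      · exact hae h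
    have e3 : s(a, x) = s(a, c) ↔ x = c := Sym2.congr_right
    have e4 : ¬ s(a, x) = s(b, e) := by
      intro h
      rw [Sym2.eq_iff] at h
      rcases h with ⟨h, _⟩ | ⟨h, _⟩
      · exact hab h
      · exact hae h
    rw [hadj]
    simp only [ne_eq, e1, e2, e3, e4, not_false_eq_true, and_true, or_false]
    constructor
    · exact fun h => h.1
    · intro h
      refine ⟨h, ?_⟩
      rcases h with ⟨h, _⟩ | rfl
      · exact G.ne_of_adj h
      · exact hac
  · intro w v hwa hwb hwc hwe
    have e5 : ∀ p q : Fin n, w ≠ p → w ≠ q → ¬ s(w, v) = s(p, q) := by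
      intro p q hp hq h
      rw [Sym2.eq_iff] at h
      rcases h with ⟨h, _⟩ | ⟨h, _⟩
      · exact hp h
      · exact hq h
    rw [hadj]
    simp only [ne_eq, e5 a b hwa hwb, e5 c e hwc hwe, e5 a c hwa hwc, e5 b e hwb hwe,
      not_false_eq_true, and_true, or_false]
    constructor
    · exact fun h => h.1
    · exact fun h => ⟨h, G.ne_of_adj h⟩

/-- Reachability by a finite sequence of switches. -/
def Reach (n : ℕ) (G H : SimpleGraph (Fin n)) : Prop :=
  Relation.ReflTransGen (SwitchRel n) G H

theorem reach_symm (G H : SimpleGraph (Fin n)) (h : Reach n G H) : Reach n H G := by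
  induction h with
  | refl => exact Relation.ReflTransGen.refl
  | tail _ hstep ih => exact Relation.ReflTransGen.head (switchRel_symm _ _ hstep) ih

theorem reach_mem (d : Fin n → ℕ) (G H : SimpleGraph (Fin n)) (hG : G ∈ realizations n d)
    (h : Reach n G H) : H ∈ realizations n d := by
  induction h with
  | refl => exact hG
  | tail _ hstep ih => exact switchRel_mem d _ _ ih hstep

open Classical in
/-- Neighbours of `x` outside `W`. -/
noncomputable def nu (G : SimpleGraph (Fin n)) (W : Finset (Fin n)) (x : Fin n) : Finset (Fin n) :=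
  Finset.univ.filter (fun y => G.Adj x y ∧ y ∉ W)

open Classical in
/-- Neighbours of `x` inside `W`. -/
noncomputable def nw (G : SimpleGraph (Fin n)) (W : Finset (Fin n)) (x : Fin n) : Finset (Fin n) :=
  Finset.univ.filter (fun y => G.Adj x y ∧ y ∈ W)

open Classical in
/-- All neighbours of `x`. -/
noncomputable def nbr (G : SimpleGraph (Fin n)) (x : Fin n) : Finset (Fin n) :=
  Finset.univ.filter (fun y => G.Adj x y)

/-- `G` and `H` have the same edges at every vertex of `W`. -/
def Agree (W : Finset (Fin n)) (G H : SimpleGraph (Fin n)) : Prop :=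
  ∀ w ∈ W, ∀ v, G.Adj w v ↔ H.Adj w v

open Classical in
theorem card_nbr (d : Fin n → ℕ) (G : SimpleGraph (Fin n)) (hG : G ∈ realizations n d)
    (x : Fin n) : (nbr G x).card = d x := by
  simp only [realizations, Finset.mem_filter, Finset.mem_univ, true_and] at hG
  rw [← hG x, ← SimpleGraph.card_neighborFinset_eq_degree, SimpleGraph.neighborFinset_eq_filter]
  rfl

theorem card_nu_add (d : Fin n → ℕ) (G : SimpleGraph (Fin n)) (hG : G ∈ realizations n d)
    (W : Finset (Fin n)) (x : Fin n) : (nu G W x).card + (nw G W x).card = d x := by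
  classical
  rw [← card_nbr d G hG x]
  have hdisj : Disjoint (nu G W x) (nw G W x) := by
    rw [Finset.disjoint_left]
    intro y h1 h2
    simp only [nu, nw, Finset.mem_filter, Finset.mem_univ, true_and] at h1 h2
    exact h1.2 h2.2
  have hun : nu G W x ∪ nw G W x = nbr G x := by
    ext y
    simp only [nu, nw, nbr, Finset.mem_union, Finset.mem_filter, Finset.mem_univ, true_and]
    tauto
  rw [← hun, Finset.card_union_of_disjoint hdisj]

theorem agree_card_nu (d : Fin n → ℕ) (G H : SimpleGraph (Fin n)) (hG : G ∈ realizations n d)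
    (hH : H ∈ realizations n d) (W : Finset (Fin n)) (hA : Agree W G H) (x : Fin n) :
    (nu G W x).card = (nu H W x).card := by
  classical
  have h1 := card_nu_add d G hG W x
  have h2 := card_nu_add d H hH W x
  have h3 : nw G W x = nw H W x := by
    ext y
    simp only [nw, Finset.mem_filter, Finset.mem_univ, true_and]
    constructor
    · rintro ⟨hxy, hy⟩
      exact ⟨((hA y hy x).mp hxy.symm).symm, hy⟩
    · rintro ⟨hxy, hy⟩
      exact ⟨((hA y hy x).mpr hxy.symm).symm, hy⟩
  rw [h3] at h1
  omega

theorem exists_alt (G : SimpleGraph (Fin n)) (W : Finset (Fin n)) (a b c : Fin n)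
    (hab : G.Adj a b) (hac : ¬ G.Adj a c) (haW : a ∉ W) (hcW : c ∉ W) (hne : a ≠ c)
    (hcard : (nu G W b).card ≤ (nu G W c).card) :
    ∃ e, e ∉ W ∧ G.Adj c e ∧ ¬ G.Adj b e ∧ e ≠ a ∧ e ≠ b ∧ e ≠ c := by
  classical
  by_contra hno
  push Not at hno
  have ha_mem : a ∈ nu G W b := by
    simp only [nu, Finset.mem_filter, Finset.mem_univ, true_and]
    exact ⟨hab.symm, haW⟩
  have hb_not : b ∉ (nu G W b).erase a := by
    intro h
    have := Finset.mem_of_mem_erase h
    simp only [nu, Finset.mem_filter, Finset.mem_univ, true_and] at this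
    exact G.loopless.irrefl b this.1
  set T : Finset (Fin n) := insert b ((nu G W b).erase a) with hT
  have hTcard : T.card = (nu G W b).card := by
    rw [hT, Finset.card_insert_of_notMem hb_not, Finset.card_erase_of_mem ha_mem]
    have : 0 < (nu G W b).card := Finset.card_pos.mpr ⟨a, ha_mem⟩
    omega
  have hsub : nu G W c ⊆ T := by
    intro e he
    simp only [nu, Finset.mem_filter, Finset.mem_univ, true_and] at he
    obtain ⟨hce, heW⟩ := he
    rw [hT, Finset.mem_insert]
    by_cases heb : e = b
    · exact Or.inl heb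
    · right
      have hea : e ≠ a := by
        intro h
        rw [h] at hce
        exact hac hce.symm
      have hec : e ≠ c := fun h => G.ne_of_adj hce h.symm
      have hbe : G.Adj b e := by
        by_contra hbe
        exact hec (hno e heW hce hbe hea heb)
      rw [Finset.mem_erase]
      refine ⟨hea, ?_⟩
      simp only [nu, Finset.mem_filter, Finset.mem_univ, true_and]
      exact ⟨hbe, heW⟩
  have heq : nu G W c = T :=
    Finset.eq_of_subset_of_card_le hsub (by rw [hTcard]; exact hcard)
  have hbT : b ∈ T := by rw [hT]; exact Finset.mem_insert_self _ _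
  rw [← heq] at hbT
  simp only [nu, Finset.mem_filter, Finset.mem_univ, true_and] at hbT
  have hcT : c ∈ T := by
    rw [hT, Finset.mem_insert]
    right
    rw [Finset.mem_erase]
    refine ⟨hne.symm, ?_⟩
    simp only [nu, Finset.mem_filter, Finset.mem_univ, true_and]
    exact ⟨hbT.1.symm, hcW⟩
  rw [← heq] at hcT
  simp only [nu, Finset.mem_filter, Finset.mem_univ, true_and] at hcT
  exact G.loopless.irrefl c hcT.1

open Classical in
/-- Neighbours of `a` in `G` that are not neighbours of `a` in `H`. -/
noncomputable def red (a : Fin n) (G H : SimpleGraph (Fin n)) : Finset (Fin n) :=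
  Finset.univ.filter (fun x => G.Adj a x ∧ ¬ H.Adj a x)

theorem nbr_eq_of_subset (d : Fin n → ℕ) (G H : SimpleGraph (Fin n)) (hG : G ∈ realizations n d)
    (hH : H ∈ realizations n d) (a : Fin n) (hsub : ∀ x, G.Adj a x → H.Adj a x) :
    ∀ x, G.Adj a x ↔ H.Adj a x := by
  classical
  have h1 : nbr G a ⊆ nbr H a := by
    intro x hx
    simp only [nbr, Finset.mem_filter, Finset.mem_univ, true_and] at hx ⊢
    exact hsub x hx
  have h2 : nbr G a = nbr H a :=
    Finset.eq_of_subset_of_card_le h1 (by rw [card_nbr d G hG a, card_nbr d H hH a])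
  intro x
  have h3 : x ∈ nbr G a ↔ x ∈ nbr H a := by rw [h2]
  simpa only [nbr, Finset.mem_filter, Finset.mem_univ, true_and] using h3

theorem inner_step (d : Fin n → ℕ) (W : Finset (Fin n)) (a : Fin n) (haW : a ∉ W) :
    ∀ (k : ℕ) (G H : SimpleGraph (Fin n)), G ∈ realizations n d → H ∈ realizations n d →
      Agree W G H → (red a G H).card = k →
      ∃ G' H' : SimpleGraph (Fin n), Reach n G G' ∧ Reach n H H' ∧ Agree W G' H' ∧
        ∀ x, G'.Adj a x ↔ H'.Adj a x := by
  classical
  intro k
  induction k with
  | zero =>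
    intro G H hG hH hA hk
    refine ⟨G, H, Relation.ReflTransGen.refl, Relation.ReflTransGen.refl, hA, ?_⟩
    apply nbr_eq_of_subset d G H hG hH a
    intro x hx
    by_contra hHx
    have : x ∈ red a G H := by
      simp only [red, Finset.mem_filter, Finset.mem_univ, true_and]
      exact ⟨hx, hHx⟩
    rw [Finset.card_eq_zero] at hk
    rw [hk] at this
    exact absurd this (Finset.notMem_empty x)
  | succ k ih =>
    intro G H hG hH hA hk
    have hpos : 0 < (red a G H).card := by omega
    obtain ⟨b, hb⟩ := Finset.card_pos.mp hpos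
    have hb' := hb
    simp only [red, Finset.mem_filter, Finset.mem_univ, true_and] at hb'
    obtain ⟨hGab, hHab⟩ := hb'
    -- a vertex `c` adjacent to `a` in `H` but not in `G`
    have hc : ∃ c, H.Adj a c ∧ ¬ G.Adj a c := by
      by_contra hno
      push Not at hno
      have := nbr_eq_of_subset d H G hH hG a hno
      exact hHab ((this b).mpr hGab)
    obtain ⟨c, hHac, hGac⟩ := hc
    have hbW : b ∉ W := by
      intro hbW
      exact hHab ((hA b hbW a).mp hGab.symm).symm
    have hcW : c ∉ W := by
      intro hcW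
      exact hGac ((hA c hcW a).mpr hHac.symm).symm
    have hab : a ≠ b := G.ne_of_adj hGab
    have hac : a ≠ c := H.ne_of_adj hHac
    have hbc : b ≠ c := by
      intro h
      rw [h] at hHab
      exact hHab hHac
    by_cases hcard : (nu G W b).card ≤ (nu G W c).card
    · obtain ⟨e, heW, hce, hbe, hea, heb, hec⟩ :=
        exists_alt G W a b c hGab hGac haW hcW hac hcard
      obtain ⟨G1, hsw, hchar, hoth⟩ :=
        switch_step G a b c e hab (Ne.symm hec) hac (Ne.symm hea) hbc (Ne.symm heb)
          hGab hce hGac hbe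
      have hG1 : G1 ∈ realizations n d := switchRel_mem d G G1 hG hsw
      have hA1 : Agree W G1 H := by
        intro w hw v
        have h1 : w ≠ a := fun h => haW (h ▸ hw)
        have h2 : w ≠ b := fun h => hbW (h ▸ hw)
        have h3 : w ≠ c := fun h => hcW (h ▸ hw)
        have h4 : w ≠ e := fun h => heW (h ▸ hw)
        rw [hoth w v h1 h2 h3 h4]
        exact hA w hw v
      have hred : red a G1 H = (red a G H).erase b := by
        ext x
        simp only [red, Finset.mem_filter, Finset.mem_univ, true_and, Finset.mem_erase]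
        rw [hchar x]
        constructor
        · rintro ⟨(⟨hx, hxb⟩ | hxc), hHx⟩
          · exact ⟨hxb, hx, hHx⟩
          · rw [hxc] at hHx
            exact absurd hHac hHx
        · rintro ⟨hxb, hx, hHx⟩
          exact ⟨Or.inl ⟨hx, hxb⟩, hHx⟩
      have hk1 : (red a G1 H).card = k := by
        rw [hred, Finset.card_erase_of_mem hb, hk]
        rfl
      obtain ⟨G', H', hr1, hr2, hA', hN⟩ := ih G1 H hG1 hH hA1 hk1
      exact ⟨G', H', Relation.ReflTransGen.head hsw hr1, hr2, hA', hN⟩
    · have hcard' : (nu H W c).card ≤ (nu H W b).card := by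
        rw [← agree_card_nu d G H hG hH W hA c, ← agree_card_nu d G H hG hH W hA b]
        omega
      obtain ⟨e, heW, hbe, hce, hea, hec, heb⟩ :=
        exists_alt H W a c b hHac hHab haW hbW hab hcard'
      obtain ⟨H1, hsw, hchar, hoth⟩ :=
        switch_step H a c b e hac (Ne.symm heb) hab (Ne.symm hea) (Ne.symm hbc) (Ne.symm hec)
          hHac hbe hHab hce
      have hH1 : H1 ∈ realizations n d := switchRel_mem d H H1 hH hsw
      have hA1 : Agree W G H1 := by
        intro w hw v
        have h1 : w ≠ a := fun h => haW (h ▸ hw)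
        have h2 : w ≠ c := fun h => hcW (h ▸ hw)
        have h3 : w ≠ b := fun h => hbW (h ▸ hw)
        have h4 : w ≠ e := fun h => heW (h ▸ hw)
        rw [hoth w v h1 h2 h3 h4]
        exact hA w hw v
      have hred : red a G H1 = (red a G H).erase b := by
        ext x
        simp only [red, Finset.mem_filter, Finset.mem_univ, true_and, Finset.mem_erase]
        rw [hchar x]
        constructor
        · rintro ⟨hx, hnot⟩
          have hxb : x ≠ b := fun h => hnot (Or.inr h)
          refine ⟨hxb, hx, ?_⟩
          intro hHx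
          apply hnot
          left
          refine ⟨hHx, ?_⟩
          intro hxc
          rw [hxc] at hx
          exact hGac hx
        · rintro ⟨hxb, hx, hHx⟩
          refine ⟨hx, ?_⟩
          rintro (⟨h, _⟩ | h)
          · exact hHx h
          · exact hxb h
      have hk1 : (red a G H1).card = k := by
        rw [hred, Finset.card_erase_of_mem hb, hk]
        rfl
      obtain ⟨G', H', hr1, hr2, hA', hN⟩ := ih G H1 hG hH1 hA1 hk1
      exact ⟨G', H', hr1, Relation.ReflTransGen.head hsw hr2, hA', hN⟩

theorem outer_step (d : Fin n → ℕ) :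
    ∀ (k : ℕ) (W : Finset (Fin n)) (G H : SimpleGraph (Fin n)), G ∈ realizations n d →
      H ∈ realizations n d → Agree W G H → (Finset.univ \ W).card = k → Reach n G H := by
  classical
  intro k
  induction k with
  | zero =>
    intro W G H _ _ hA hk
    have hW : ∀ x, x ∈ W := by
      intro x
      by_contra hx
      have : x ∈ Finset.univ \ W := Finset.mem_sdiff.mpr ⟨Finset.mem_univ x, hx⟩
      rw [Finset.card_eq_zero] at hk
      rw [hk] at this
      exact absurd this (Finset.notMem_empty x)
    have : G = H := by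
      ext x y
      exact hA x (hW x) y
    rw [this]
    exact Relation.ReflTransGen.refl
  | succ k ih =>
    intro W G H hG hH hA hk
    have hpos : 0 < (Finset.univ \ W).card := by omega
    obtain ⟨a, ha⟩ := Finset.card_pos.mp hpos
    have haW : a ∉ W := (Finset.mem_sdiff.mp ha).2
    obtain ⟨G', H', hr1, hr2, hA', hN⟩ := inner_step d W a haW _ G H hG hH hA rfl
    have hG' : G' ∈ realizations n d := reach_mem d G G' hG hr1
    have hH' : H' ∈ realizations n d := reach_mem d H H' hH hr2
    have hA'' : Agree (insert a W) G' H' := by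
      intro w hw v
      rw [Finset.mem_insert] at hw
      rcases hw with rfl | hw
      · exact hN v
      · exact hA' w hw v
    have hk' : (Finset.univ \ insert a W).card = k := by
      have h1 : Finset.univ \ insert a W = (Finset.univ \ W).erase a := by
        ext x
        simp only [Finset.mem_sdiff, Finset.mem_univ, true_and, Finset.mem_insert,
          Finset.mem_erase, not_or]
      rw [h1, Finset.card_erase_of_mem ha, hk]
      rfl
    have hmid : Reach n G' H' := ih (insert a W) G' H' hG' hH' hA'' hk'
    exact Relation.ReflTransGen.trans hr1 (Relation.ReflTransGen.trans hmid (reach_symm H H' hr2))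

/-- Any two realizations are joined by a sequence of switches. -/
theorem reach_all (d : Fin n → ℕ) (G H : SimpleGraph (Fin n)) (hG : G ∈ realizations n d)
    (hH : H ∈ realizations n d) : Reach n G H :=
  outer_step d _ ∅ G H hG hH (fun w hw => absurd hw (Finset.notMem_empty w)) rfl

end Vale.Agent.Lib.P335
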