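import Mathlib

namespace Vale.Agent.Lib.P335

open Finset

section Mixing

variable {β : Type*} [Fintype β]

/-- Dirichlet form of a kernel `P` at `f`. -/
noncomputable def dirichlet (P : β → β → ℝ) (f : β → ℝ) : ℝ :=
  ∑ x, ∑ y, P x y * (f x - f y) ^ 2

theorem dirichlet_nonneg (P : β → β → ℝ) (hnn : ∀ x y, 0 ≤ P x y) (f : β → ℝ) :
    0 ≤ dirichlet P f :=
  Finset.sum_nonneg (fun x _ => Finset.sum_nonneg (fun y _ => mul_nonneg (hnn x y) (sq_nonneg _)))

theorem pf_eq (P : β → β → ℝ) (hrow : ∀ x, ∑ y, P x y = 1) (f : β → ℝ) (x : β) :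
    ∑ y, P x y * f y = f x - ∑ y, P x y * (f x - f y) := by
  have h1 : ∑ y, P x y * (f x - f y) = f x * ∑ y, P x y - ∑ y, P x y * f y := by
    rw [Finset.mul_sum, ← Finset.sum_sub_distrib]
    apply Finset.sum_congr rfl
    intro y _
    ring
  rw [h1, hrow x]
  ring

theorem two_fg (P : β → β → ℝ) (hsymm : ∀ x y, P x y = P y x) (hrow : ∀ x, ∑ y, P x y = 1)
    (f : β → ℝ) :
    ∑ x, 2 * f x * ∑ y, P x y * (f x - f y) = dirichlet P f := by
  unfold dirichlet
  have hA : ∑ x, ∑ y, P x y * (f y) ^ 2 = ∑ x, (f x) ^ 2 := by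
    rw [Finset.sum_comm]
    apply Finset.sum_congr rfl
    intro y _
    rw [← Finset.sum_mul]
    have : ∑ x, P x y = 1 := by
      rw [← hrow y]
      exact Finset.sum_congr rfl (fun x _ => hsymm x y)
    rw [this, one_mul]
  have hB : ∑ x, ∑ y, P x y * (f x) ^ 2 = ∑ x, (f x) ^ 2 := by
    apply Finset.sum_congr rfl
    intro x _
    rw [← Finset.sum_mul, hrow x, one_mul]
  have hL : ∑ x, 2 * f x * ∑ y, P x y * (f x - f y)
      = 2 * ∑ x, ∑ y, P x y * (f x) ^ 2 - 2 * ∑ x, ∑ y, P x y * (f x * f y) := by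
    rw [Finset.mul_sum, Finset.mul_sum, ← Finset.sum_sub_distrib]
    apply Finset.sum_congr rfl
    intro x _
    rw [Finset.mul_sum, Finset.mul_sum, Finset.mul_sum, ← Finset.sum_sub_distrib]
    apply Finset.sum_congr rfl
    intro y _
    ring
  have hR : ∑ x, ∑ y, P x y * (f x - f y) ^ 2
      = ∑ x, ∑ y, P x y * (f x) ^ 2 + ∑ x, ∑ y, P x y * (f y) ^ 2
        - 2 * ∑ x, ∑ y, P x y * (f x * f y) := by
    rw [Finset.mul_sum, ← Finset.sum_add_distrib, ← Finset.sum_sub_distrib]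
    apply Finset.sum_congr rfl
    intro x _
    rw [Finset.mul_sum, ← Finset.sum_add_distrib, ← Finset.sum_sub_distrib]
    apply Finset.sum_congr rfl
    intro y _
    ring
  rw [hL, hR, hA, hB]
  ring

theorem g_sq_le (P : β → β → ℝ) (hnn : ∀ x y, 0 ≤ P x y) (hrow : ∀ x, ∑ y, P x y = 1)
    (hlazy : ∀ x, 1 / 2 ≤ P x x) (f : β → ℝ) (x : β) :
    (∑ y, P x y * (f x - f y)) ^ 2 ≤ (1 / 2) * ∑ y, P x y * (f x - f y) ^ 2 := by
  classical
  have hcs := Finset.sum_sq_le_sum_mul_sum_of_sq_le_mul (Finset.univ : Finset β)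
    (r := fun y => P x y * (f x - f y)) (f := fun y => if y = x then 0 else P x y)
    (g := fun y => P x y * (f x - f y) ^ 2)
    (fun y _ => by
      show 0 ≤ (if y = x then (0 : ℝ) else P x y)
      split_ifs
      · exact le_refl 0
      · exact hnn x y)
    (fun y _ => mul_nonneg (hnn x y) (sq_nonneg _))
    (fun y _ => by
      show (P x y * (f x - f y)) ^ 2 ≤ (if y = x then (0 : ℝ) else P x y) * (P x y * (f x - f y) ^ 2)
      by_cases h : y = x
      · subst h
        simp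
      · rw [if_neg h]
        apply le_of_eq
        ring)
  have hw : ∑ y, (if y = x then (0 : ℝ) else P x y) ≤ 1 / 2 := by
    have h1 : ∑ y, (if y = x then (0 : ℝ) else P x y) = ∑ y, P x y - P x x := by
      have h2 : ∀ y, (if y = x then (0 : ℝ) else P x y) = P x y - (if y = x then P x y else 0) := by
        intro y
        split_ifs <;> ring
      rw [Finset.sum_congr rfl (fun y _ => h2 y), Finset.sum_sub_distrib]
      congr 1
      rw [Finset.sum_ite_eq' Finset.univ x (fun y => P x y)]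
      simp
    rw [h1, hrow x]
    linarith [hlazy x]
  have hD : 0 ≤ ∑ y, P x y * (f x - f y) ^ 2 :=
    Finset.sum_nonneg (fun y _ => mul_nonneg (hnn x y) (sq_nonneg _))
  calc (∑ y, P x y * (f x - f y)) ^ 2
      ≤ (∑ y, (if y = x then (0 : ℝ) else P x y)) * ∑ y, P x y * (f x - f y) ^ 2 := hcs
    _ ≤ (1 / 2) * ∑ y, P x y * (f x - f y) ^ 2 := mul_le_mul_of_nonneg_right hw hD

theorem energy_step (P : β → β → ℝ) (hsymm : ∀ x y, P x y = P y x) (hnn : ∀ x y, 0 ≤ P x y)
    (hrow : ∀ x, ∑ y, P x y = 1) (hlazy : ∀ x, 1 / 2 ≤ P x x) (f : β → ℝ) :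
    ∑ x, (∑ y, P x y * f y) ^ 2 ≤ ∑ x, (f x) ^ 2 - (1 / 2) * dirichlet P f := by
  have h1 : ∀ x, (∑ y, P x y * f y) ^ 2
      = (f x) ^ 2 - 2 * f x * (∑ y, P x y * (f x - f y)) + (∑ y, P x y * (f x - f y)) ^ 2 := by
    intro x
    rw [pf_eq P hrow f x]
    ring
  have h2 : ∑ x, (∑ y, P x y * f y) ^ 2
      = ∑ x, (f x) ^ 2 - ∑ x, 2 * f x * (∑ y, P x y * (f x - f y))
        + ∑ x, (∑ y, P x y * (f x - f y)) ^ 2 := by
    rw [Finset.sum_congr rfl (fun x _ => h1 x), Finset.sum_add_distrib, Finset.sum_sub_distrib]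
  have h3 : ∑ x, (∑ y, P x y * (f x - f y)) ^ 2 ≤ (1 / 2) * dirichlet P f := by
    unfold dirichlet
    rw [Finset.mul_sum]
    exact Finset.sum_le_sum (fun x _ => g_sq_le P hnn hrow hlazy f x)
  rw [h2, two_fg P hsymm hrow f]
  linarith

theorem edge_le_dirichlet (P : β → β → ℝ) (hnn : ∀ x y, 0 ≤ P x y) (f : β → ℝ) (x y : β) :
    P x y * (f x - f y) ^ 2 ≤ dirichlet P f := by
  unfold dirichlet
  have h1 : P x y * (f x - f y) ^ 2 ≤ ∑ y', P x y' * (f x - f y') ^ 2 :=
    Finset.single_le_sum (f := fun y' => P x y' * (f x - f y') ^ 2)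
      (fun y' _ => mul_nonneg (hnn x y') (sq_nonneg _)) (Finset.mem_univ y)
  have h2 : ∑ y', P x y' * (f x - f y') ^ 2 ≤ ∑ x', ∑ y', P x' y' * (f x' - f y') ^ 2 :=
    Finset.single_le_sum (f := fun x' => ∑ y', P x' y' * (f x' - f y') ^ 2)
      (fun x' _ => Finset.sum_nonneg (fun y' _ => mul_nonneg (hnn x' y') (sq_nonneg _)))
      (Finset.mem_univ x)
  exact le_trans h1 h2

theorem adj_diff_le (P : β → β → ℝ) (q : ℝ) (hq : 0 < q) (hnn : ∀ x y, 0 ≤ P x y)
    (Γ : SimpleGraph β) (hedge : ∀ x y, Γ.Adj x y → q ≤ P x y) (f : β → ℝ) (x y : β)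
    (hxy : Γ.Adj x y) : |f x - f y| ≤ Real.sqrt (dirichlet P f / q) := by
  apply Real.abs_le_sqrt
  rw [le_div_iff₀ hq]
  calc (f x - f y) ^ 2 * q = q * (f x - f y) ^ 2 := by ring
    _ ≤ P x y * (f x - f y) ^ 2 := mul_le_mul_of_nonneg_right (hedge x y hxy) (sq_nonneg _)
    _ ≤ dirichlet P f := edge_le_dirichlet P hnn f x y

omit [Fintype β] in
theorem walk_diff_le (Γ : SimpleGraph β) (f : β → ℝ) (c : ℝ)
    (hadj : ∀ x y, Γ.Adj x y → |f x - f y| ≤ c) :
    ∀ (x y : β) (p : Γ.Walk x y), |f x - f y| ≤ (p.length : ℝ) * c := by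
  intro x y p
  induction p with
  | nil => simp
  | cons h p ih =>
    rename_i u v w
    rw [SimpleGraph.Walk.length_cons]
    have h1 : |f u - f w| ≤ |f u - f v| + |f v - f w| := by
      have : f u - f w = (f u - f v) + (f v - f w) := by ring
      rw [this]
      exact abs_add_le _ _
    have h2 := hadj u v h
    push_cast
    linarith

theorem diff_le_card (Γ : SimpleGraph β) (hconn : Γ.Connected) (f : β → ℝ) (c : ℝ) (hc : 0 ≤ c)
    (hadj : ∀ x y, Γ.Adj x y → |f x - f y| ≤ c) (x y : β) :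
    |f x - f y| ≤ (Fintype.card β : ℝ) * c := by
  classical
  obtain ⟨p⟩ := hconn.preconnected x y
  have hpath := (p.toPath).2
  have hlen : (p.toPath : Γ.Walk x y).length < Fintype.card β := hpath.length_lt
  have h1 := walk_diff_le Γ f c hadj x y (p.toPath : Γ.Walk x y)
  have h2 : ((p.toPath : Γ.Walk x y).length : ℝ) ≤ (Fintype.card β : ℝ) := by
    exact_mod_cast hlen.le
  calc |f x - f y| ≤ ((p.toPath : Γ.Walk x y).length : ℝ) * c := h1
    _ ≤ (Fintype.card β : ℝ) * c := mul_le_mul_of_nonneg_right h2 hc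

theorem poincare (P : β → β → ℝ) (q : ℝ) (hq : 0 < q) (hnn : ∀ x y, 0 ≤ P x y)
    (Γ : SimpleGraph β) (hconn : Γ.Connected) (hedge : ∀ x y, Γ.Adj x y → q ≤ P x y)
    (f : β → ℝ) (hmean : ∑ x, f x = 0) :
    ∑ x, (f x) ^ 2 ≤ (Fintype.card β : ℝ) ^ 3 / q * dirichlet P f := by
  set N : ℝ := (Fintype.card β : ℝ) with hN
  set D : ℝ := dirichlet P f with hD
  have hD0 : 0 ≤ D := dirichlet_nonneg P hnn f
  set c : ℝ := Real.sqrt (D / q) with hc
  have hc0 : 0 ≤ c := Real.sqrt_nonneg _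
  have hc2 : c ^ 2 = D / q := Real.sq_sqrt (div_nonneg hD0 hq.le)
  have hN0 : 0 ≤ N := Nat.cast_nonneg _
  have hdiff : ∀ x y, |f x - f y| ≤ N * c :=
    diff_le_card Γ hconn f c hc0 (adj_diff_le P q hq hnn Γ hedge f)
  have hpt : ∀ x, (f x) ^ 2 ≤ N ^ 2 * (D / q) := by
    intro x
    have h1 : N * f x = ∑ y, (f x - f y) := by
      rw [Finset.sum_sub_distrib, hmean, Finset.sum_const, Finset.card_univ, nsmul_eq_mul]
      ring
    have h2 : |N * f x| ≤ N * (N * c) := by
      rw [h1]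
      calc |∑ y, (f x - f y)| ≤ ∑ y, |f x - f y| := Finset.abs_sum_le_sum_abs _ _
        _ ≤ ∑ _y : β, N * c := Finset.sum_le_sum (fun y _ => hdiff x y)
        _ = N * (N * c) := by
          rw [Finset.sum_const, Finset.card_univ, nsmul_eq_mul]
    rcases eq_or_lt_of_le hN0 with hN' | hN'
    · -- N = 0: empty type, contradiction with x
      exfalso
      have h0 : (Fintype.card β : ℝ) = 0 := hN'.symm
      have : Fintype.card β = 0 := by exact_mod_cast h0
      exact (Fintype.card_eq_zero_iff.mp this).elim x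
    · have h3 : |f x| ≤ N * c := by
        rw [abs_mul, abs_of_pos hN'] at h2
        exact le_of_mul_le_mul_left h2 hN'
      have h4 : (f x) ^ 2 ≤ (N * c) ^ 2 := by
        rw [← sq_abs (f x)]
        exact pow_le_pow_left₀ (abs_nonneg _) h3 2
      calc (f x) ^ 2 ≤ (N * c) ^ 2 := h4
        _ = N ^ 2 * (D / q) := by rw [mul_pow, hc2]
  calc ∑ x, (f x) ^ 2 ≤ ∑ _x : β, N ^ 2 * (D / q) := Finset.sum_le_sum (fun x _ => hpt x)
    _ = N * (N ^ 2 * (D / q)) := by rw [Finset.sum_const, Finset.card_univ, nsmul_eq_mul]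
    _ = N ^ 3 / q * D := by ring

/-- Abstract mixing bound: a symmetric, lazy Markov kernel on a finite set whose
transition graph contains a connected graph with all edge probabilities at least `q`
is within total variation `1/4` of uniform after `8 N^4 / q` steps. -/
theorem mixing_bound (P : β → β → ℝ) (q : ℝ) (hq : 0 < q)
    (hsymm : ∀ x y, P x y = P y x) (hnn : ∀ x y, 0 ≤ P x y)
    (hrow : ∀ x, ∑ y, P x y = 1) (hlazy : ∀ x, 1 / 2 ≤ P x x)
    (Γ : SimpleGraph β) (hconn : Γ.Connected) (hedge : ∀ x y, Γ.Adj x y → q ≤ P x y)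
    (μ : ℕ → β → ℝ) (x0 : β) (h0 : μ 0 x0 = 1) (h0' : ∀ y, y ≠ x0 → μ 0 y = 0)
    (hstep : ∀ t y, μ (t + 1) y = ∑ z, μ t z * P z y) (t : ℕ)
    (ht : 8 * (Fintype.card β : ℝ) ^ 4 ≤ q * t) :
    (1 / 2) * ∑ y, |μ t y - 1 / (Fintype.card β : ℝ)| ≤ 1 / 4 := by
  classical
  set N : ℝ := (Fintype.card β : ℝ) with hN
  have hN1 : 1 ≤ N := by
    have : 0 < Fintype.card β := Fintype.card_pos_iff.mpr ⟨x0⟩
    have h1 : 1 ≤ Fintype.card β := this
    have h2 : (1 : ℝ) ≤ (Fintype.card β : ℝ) := by exact_mod_cast h1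
    exact h2
  have hNpos : 0 < N := lt_of_lt_of_le one_pos hN1
  -- total mass one
  have hsum : ∀ s, ∑ y, μ s y = 1 := by
    intro s
    induction s with
    | zero =>
      rw [Finset.sum_eq_single x0 (fun y _ hy => h0' y hy) (fun h => absurd (Finset.mem_univ x0) h)]
      exact h0
    | succ s ih =>
      rw [Finset.sum_congr rfl (fun y _ => hstep s y), Finset.sum_comm]
      rw [← ih]
      apply Finset.sum_congr rfl
      intro z _
      rw [← Finset.mul_sum, hrow z, mul_one]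
  set f : ℕ → β → ℝ := fun s y => μ s y - 1 / N with hf
  have hf_mean : ∀ s, ∑ y, f s y = 0 := by
    intro s
    simp only [hf]
    rw [Finset.sum_sub_distrib, hsum s, Finset.sum_const, Finset.card_univ, nsmul_eq_mul, ← hN]
    field_simp
    simp
  have hf_step : ∀ s y, f (s + 1) y = ∑ z, P y z * f s z := by
    intro s y
    simp only [hf]
    rw [hstep s y]
    have h1 : ∑ z, P y z * (μ s z - 1 / N) = ∑ z, μ s z * P z y - (1 / N) * ∑ z, P y z := by
      rw [Finset.mul_sum, ← Finset.sum_sub_distrib]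
      apply Finset.sum_congr rfl
      intro z _
      rw [hsymm z y]
      ring
    rw [h1, hrow y]
    ring
  set a : ℕ → ℝ := fun s => ∑ y, (f s y) ^ 2 with ha
  have ha_nonneg : ∀ s, 0 ≤ a s := fun s => Finset.sum_nonneg (fun y _ => sq_nonneg _)
  set γ : ℝ := q / (2 * N ^ 3) with hγ
  have hγ0 : 0 ≤ γ := by positivity
  have ha_step : ∀ s, a (s + 1) ≤ (1 - γ) * a s := by
    intro s
    have h1 : a (s + 1) = ∑ y, (∑ z, P y z * f s z) ^ 2 := by
      simp only [ha]
      exact Finset.sum_congr rfl (fun y _ => by rw [hf_step s y])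
    have h2 := energy_step P hsymm hnn hrow hlazy (f s)
    have h3 := poincare P q hq hnn Γ hconn hedge (f s) (hf_mean s)
    have h4 : γ * a s ≤ (1 / 2) * dirichlet P (f s) := by
      have h5 : a s ≤ N ^ 3 / q * dirichlet P (f s) := h3
      have h6 : γ * a s ≤ γ * (N ^ 3 / q * dirichlet P (f s)) :=
        mul_le_mul_of_nonneg_left h5 hγ0
      have h7 : γ * (N ^ 3 / q * dirichlet P (f s)) = (1 / 2) * dirichlet P (f s) := by
        simp only [hγ]
        field_simp
      linarith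
    rw [h1]
    have h8 : ∑ y, (∑ z, P y z * f s z) ^ 2 ≤ a s - (1 / 2) * dirichlet P (f s) := h2
    linarith
  have ha0 : a 0 ≤ 1 := by
    have hsq : ∀ y, (μ 0 y) ^ 2 = μ 0 y := by
      intro y
      by_cases hy : y = x0
      · rw [hy, h0]; norm_num
      · rw [h0' y hy]; norm_num
    have h1 : a 0 = ∑ y, (μ 0 y - 2 / N * μ 0 y + 1 / N ^ 2) := by
      simp only [ha, hf]
      apply Finset.sum_congr rfl
      intro y _
      have := hsq y
      have h2 : (μ 0 y - 1 / N) ^ 2 = (μ 0 y) ^ 2 - 2 / N * μ 0 y + 1 / N ^ 2 := by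
        field_simp
        ring
      rw [h2, this]
    rw [h1, Finset.sum_add_distrib, Finset.sum_sub_distrib, ← Finset.mul_sum, hsum 0,
      Finset.sum_const, Finset.card_univ, nsmul_eq_mul]
    have h3 : (Fintype.card β : ℝ) * (1 / N ^ 2) = 1 / N := by
      rw [← hN]
      field_simp
    rw [h3]
    have h4 : 0 < 1 / N := by positivity
    have h5 : 2 / N * 1 = 2 * (1 / N) := by ring
    rw [h5]
    linarith
  have hmain : ∀ s : ℕ, a s * (1 + (s : ℝ) * γ) ≤ 1 := by
    intro s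
    induction s with
    | zero => simpa using ha0
    | succ s ih =>
      have h1 : 0 ≤ 1 + ((s + 1 : ℕ) : ℝ) * γ := by positivity
      have h2 : a (s + 1) * (1 + ((s + 1 : ℕ) : ℝ) * γ)
          ≤ (1 - γ) * a s * (1 + ((s + 1 : ℕ) : ℝ) * γ) :=
        mul_le_mul_of_nonneg_right (ha_step s) h1
      have h3 : (1 - γ) * a s * (1 + ((s + 1 : ℕ) : ℝ) * γ)
          = a s * (1 + (s : ℝ) * γ) - a s * (((s : ℝ) + 1) * γ ^ 2) := by
        push_cast
        ring
      have h4 : 0 ≤ a s * (((s : ℝ) + 1) * γ ^ 2) :=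
        mul_nonneg (ha_nonneg s) (by positivity)
      linarith
  -- final estimate
  have htγ : 4 * N ≤ (t : ℝ) * γ := by
    simp only [hγ]
    rw [mul_div_assoc', le_div_iff₀ (by positivity)]
    calc 4 * N * (2 * N ^ 3) = 8 * N ^ 4 := by ring
      _ ≤ q * t := ht
      _ = (t : ℝ) * q := by ring
  have hat : N * a t ≤ 1 / 4 := by
    have h1 := hmain t
    have h2 : a t * (4 * N) ≤ a t * (1 + (t : ℝ) * γ) :=
      mul_le_mul_of_nonneg_left (by linarith) (ha_nonneg t)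
    linarith
  have hcs : (∑ y, |f t y|) ^ 2 ≤ N * a t := by
    have h1 := sq_sum_le_card_mul_sum_sq (s := (Finset.univ : Finset β)) (f := fun y => |f t y|)
    have h2 : ∑ y, |f t y| ^ 2 = a t := by
      simp only [ha]
      exact Finset.sum_congr rfl (fun y _ => sq_abs _)
    rw [h2, Finset.card_univ] at h1
    exact h1
  have hS0 : 0 ≤ ∑ y, |f t y| := Finset.sum_nonneg (fun y _ => abs_nonneg _)
  have hS : ∑ y, |f t y| ≤ 1 / 2 := by
    have h1 : (∑ y, |f t y|) ^ 2 ≤ (1 / 2) ^ 2 := by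
      calc (∑ y, |f t y|) ^ 2 ≤ N * a t := hcs
        _ ≤ 1 / 4 := hat
        _ = (1 / 2) ^ 2 := by norm_num
    exact le_of_sq_le_sq h1 (by norm_num)
  have hfin : ∑ y, |μ t y - 1 / N| = ∑ y, |f t y| := rfl
  rw [hfin]
  linarith

end Mixing

end Vale.Agent.Lib.P335
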